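import Vale.Agent.Lib.P154.PChain.Prog

set_option linter.all false

namespace Vale.Agent.Lib.P154.PChain.BX

open Vale.Agent.Lib.P154.Chain

/-- the global parameters -/
noncomputable def g : GP := ⟨2, 41, 100, 38, 30, 64, 78, 76⟩

/-- the weights of the mixture -/
noncomputable def wp : WP := ⟨(nat_lit 1282448), (WL.cons (nat_lit 4206402) (WL.cons (nat_lit 13107067) (WL.cons (nat_lit 38691816) (WL.cons (nat_lit 107872094) (WL.cons (nat_lit 283054564) (WL.cons (nat_lit 696309771) (WL.cons (nat_lit 1598717003) (WL.cons (nat_lit 3408442838) (WL.cons (nat_lit 6707772575) (WL.cons (nat_lit 12100744282) (WL.cons (nat_lit 19845093614) (WL.cons (nat_lit 29291170710) (WL.cons (nat_lit 38429770022) (WL.cons (nat_lit 44117093636) (WL.cons (nat_lit 43410942307) (WL.cons (nat_lit 35596744873) (WL.cons (nat_lit 23351315188) (WL.cons (nat_lit 11488773544) (WL.cons (nat_lit 3768293605) WL.nil))))))))))))))))))), (nat_lit 617996196), (nat_lit 20)⟩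

/-- a lattice -/
noncomputable def l0 : LP := ⟨1150, 1000, 100, 200, 19, (nat_lit 14870395989013502302793257783969828656778174374378351424275672086094293248991193367095427693665419353895054053086858993490696709969818771451210306900957965819450806554600709859881417981567828172777695145267405238311195377121459788967555238882255759979152518254218578364723266885810913280)⟩

/-- a lattice -/
noncomputable def l1 : LP := ⟨1080, 1000, 120, 240, 48, (nat_lit 1928669195211514734922729678781187543618699278768307072965756529162752960151571418375042692750508985027307905526167577800889404622238998250449331095130442085243625600160106574822505665581855312151703237423290394115059182968299163614933176335892519816854255274703433113271251312750110616268365344036281638553985423975967283628580191993787291154902014130564422657426111381532116718344971127408094886756977328929819077162853887168181892428791053221689987603745858309400789228842641722483339281633458772975626672602069033244425083601205203063589026463392288674822879012502957650550788624113997105255236749610267827968279633477682929410426011471889960758732135949285870252661578170805176882201637921123739893760)⟩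

/-- a lattice -/
noncomputable def l2 : LP := ⟨1050, 1000, 120, 240, 98, (nat_lit 571804195417888171911935987408638500693454291604038541170473549476661021324350765757653003497723210311656796486380800707236005182536492096549292656704057921993653620399894211534768437072452399956125690163586356719464408040843336857839061596936204064835086470561280702969041894114129213408402564522754223761063365546088562240739939528753753967524936566656678010843783997595290853874769039332105271877256736483195781377910770444485607824355710572761805138654690380862218742502663322863249339465605264805350009771337722149039682189484918220444733532332907900508876522570126020910235433083766279995694072736215915354273666271879068448408381320727298035397484772583908090801106672574463030554848956880070656743908270544453800276968702798226747880526086344020236797631048305366971964943489148853486333664128376444955631440991297291353588908712116763084676592410454125901995308250374282037770482800513461888457960469146046110802046349692879113280974327692899542726125074773764695400533639488110215500103062327953605017385922120621564923133758862953287626486123409945853935682513859828572795099045605588622427073271343301217463932523321585827899569976419468649199980475965647195028035135777989087900734439637683192805445983922864279323069683699158904633103845218850465389937741985012860598933622107822655776258589277565871754377871304458831307017088422461425668057228883717308025739033761650112723536293870880520596414826642773251194880)⟩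

/-- a lattice -/
noncomputable def l3 : LP := ⟨1030, 1000, 130, 260, 2, (nat_lit 28584513254900195967898499046664600289280)⟩

/-- the parameters of the class at the hand-off -/
noncomputable def hp : HP := ⟨143886, 1000000, 169, 100, 85, 100, 1, 1, 64⟩

end Vale.Agent.Lib.P154.PChain.BX
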